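import Mathlib

open MvPolynomial

namespace Vale.Agent.Results.P295.DegreeTwo

/-- `f` is a coordinate of the polynomial ring `ℂ[x_i : i ∈ σ]`: some `ℂ`-algebra automorphism
sends `f` to one of the variables. -/
def IsCoordinate {σ : Type} (f : MvPolynomial σ ℂ) : Prop :=
  ∃ (φ : MvPolynomial σ ℂ ≃ₐ[ℂ] MvPolynomial σ ℂ) (i : σ), φ f = X i

/-- `f ∈ R_n` is a stable coordinate: for some `m ≥ 1` it is a coordinate of the polynomial ring
in the `n + m` variables indexed by `Fin n ⊕ Fin m`. -/
def IsStableCoordinate {n : ℕ} (f : MvPolynomial (Fin n) ℂ) : Prop :=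
  ∃ m : ℕ, 1 ≤ m ∧ IsCoordinate (rename (Sum.inl : Fin n → Fin n ⊕ Fin m) f)

lemma chain_rule {σ : Type} [Fintype σ] {A : Type} [CommRing A] [Algebra ℂ A]
    (D : Derivation ℂ A A) (p : σ → A) (f : MvPolynomial σ ℂ) :
    D (aeval p f) = ∑ i, aeval p (pderiv i f) * D (p i) := by
  classical
  induction f using MvPolynomial.induction_on with
  | C a => simp
  | add f g hf hg => simp [hf, hg, add_mul, Finset.sum_add_distrib]
  | mul_X f j hf =>
    simp only [map_mul, aeval_X, Derivation.leibniz, hf, pderiv_X, smul_eq_mul, map_add,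
      add_mul, Finset.sum_add_distrib, Pi.single_apply]
    have h1 : ∑ x, (aeval p) f * (aeval p) (if j = x then (1 : MvPolynomial σ ℂ) else 0) * D (p x)
        = aeval p f * D (p j) := by
      rw [Finset.sum_eq_single j]
      · simp
      · intro b _ hb
        simp [Ne.symm hb]
      · simp
    rw [h1, Finset.mul_sum]
    congr 1
    apply Finset.sum_congr rfl
    intro x _
    ring

lemma taylor {σ : Type} [Fintype σ] (f : MvPolynomial σ ℂ) (k : σ → ℂ)
    (hk : ∑ i, C (k i) * pderiv i f = 1) (p : σ → MvPolynomial σ ℂ) (t : MvPolynomial σ ℂ) :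
    aeval (fun i => p i + t * C (k i)) f = aeval p f + t := by
  let A := MvPolynomial σ ℂ
  let P : σ → Polynomial A := fun i => Polynomial.C (p i) + Polynomial.X * Polynomial.C (C (k i))
  let g : Polynomial A := aeval P f
  let D : Derivation ℂ (Polynomial A) (Polynomial A) :=
    (Polynomial.derivative' (R := A)).restrictScalars ℂ
  have hD : ∀ q, D q = Polynomial.derivative q := fun q => rfl
  have h1 : Polynomial.derivative g = 1 := by
    rw [← hD, chain_rule D P f]
    have : ∀ i, D (P i) = aeval P (C (k i)) := by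
      intro i
      rw [hD]
      simp [P]
      rfl
    simp only [this, ← map_mul, ← map_sum]
    have h2 : ∑ x, pderiv x f * C (k x) = 1 := by
      rw [← hk]
      apply Finset.sum_congr rfl
      intro x _
      ring
    rw [h2, map_one]
  have h3 : Polynomial.derivative (g - Polynomial.X) = 0 := by
    simp [h1]
  have h4 := Polynomial.eq_C_of_derivative_eq_zero h3
  have h5 : ∀ s : A, Polynomial.eval s g = aeval (fun i => p i + s * C (k i)) f := by
    intro s
    have : Polynomial.eval s g =
        ((Polynomial.aeval s : Polynomial A →ₐ[A] A).restrictScalars ℂ) g := by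
      simp [Polynomial.aeval_def, Polynomial.eval₂_eq_eval_map]
    rw [this]
    change ((Polynomial.aeval s : Polynomial A →ₐ[A] A).restrictScalars ℂ) (aeval P f) = _
    rw [← AlgHom.comp_apply, comp_aeval]
    congr 2
    funext i
    simp [P]
    exact mul_comm _ _
  have h6 : g = Polynomial.X + Polynomial.C ((g - Polynomial.X).coeff 0) := by
    rw [← h4]; ring
  have h7 : (g - Polynomial.X).coeff 0 = aeval p f := by
    have := h5 0
    simp only [zero_mul, add_zero] at this
    rw [← this, Polynomial.coeff_zero_eq_eval_zero]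
    simp
  rw [← h5 t, h6, h7]
  simp [add_comm]

lemma coordinate_of_direction {σ : Type} [Fintype σ] (f : MvPolynomial σ ℂ) (k : σ → ℂ)
    (hk : ∑ i, C (k i) * pderiv i f = 1) : IsCoordinate f := by
  classical
  have hex : ∃ i₀, k i₀ ≠ 0 := by
    by_contra hcon
    push Not at hcon
    simp [hcon] at hk
  obtain ⟨i₀, hi₀⟩ := hex
  set c := k i₀ with hc
  let Y : σ → MvPolynomial σ ℂ := fun j => if j = i₀ then 0 else X j
  let T : MvPolynomial σ ℂ := X i₀ - aeval Y f
  let Φ : σ → MvPolynomial σ ℂ := fun j => Y j + T * C (k j)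
  let Ψ : σ → MvPolynomial σ ℂ := fun j => if j = i₀ then f else X j - C (k j / c) * X i₀
  have hΦf : aeval Φ f = X i₀ := by
    rw [taylor f k hk Y T]
    simp [T]
  have hcc : (C (1 / c) : MvPolynomial σ ℂ) * C c = 1 := by
    rw [← C_mul, one_div, inv_mul_cancel₀ hi₀, C_1]
  have hkc : ∀ j, (C (k j / c) : MvPolynomial σ ℂ) = C (k j) * C (1 / c) := by
    intro j
    rw [← C_mul]
    congr 1
    ring
  have h1 : (aeval Φ).comp (aeval Ψ) = AlgHom.id ℂ (MvPolynomial σ ℂ) := by
    apply MvPolynomial.algHom_ext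
    intro j
    simp only [AlgHom.comp_apply, aeval_X, AlgHom.id_apply]
    by_cases hj : j = i₀
    · subst hj
      simp only [Ψ, if_true]
      exact hΦf
    · simp only [Ψ, if_neg hj, map_sub, map_mul, aeval_X, aeval_C, algebraMap_eq]
      simp only [Φ, Y, if_neg hj, if_true, zero_add, hkc]
      linear_combination (-(T * C (k j))) * hcc
  have hZ : ∀ j, aeval Ψ (Y j) = X j + (-(C (1 / c)) * X i₀) * C (k j) := by
    intro j
    by_cases hj : j = i₀
    · subst hj
      simp only [Y, if_true, map_zero]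
      linear_combination (X j) * hcc
    · simp only [Y, if_neg hj, aeval_X, Ψ, hkc]
      ring
  have hT : aeval Ψ T = C (1 / c) * X i₀ := by
    simp only [T, map_sub, aeval_X, Ψ, if_true]
    rw [← AlgHom.comp_apply, comp_aeval]
    have : (fun i => (aeval Ψ) (Y i)) = fun j => X j + (-(C (1 / c)) * X i₀) * C (k j) := by
      funext j
      exact hZ j
    rw [this, taylor f k hk X _]
    simp
  have h2 : (aeval Ψ).comp (aeval Φ) = AlgHom.id ℂ (MvPolynomial σ ℂ) := by
    apply MvPolynomial.algHom_ext
    intro j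
    simp only [AlgHom.comp_apply, aeval_X, AlgHom.id_apply]
    simp only [Φ, map_add, map_mul, hZ, hT, aeval_C, algebraMap_eq]
    ring
  exact ⟨AlgEquiv.ofAlgHom (aeval Φ) (aeval Ψ) h1 h2, i₀, hΦf⟩

lemma functional_eq_eval {σ : Type} (lam : MvPolynomial σ ℂ →ₗ[ℂ] ℂ) (q : MvPolynomial σ ℂ)
    (hq : ∀ m ∈ q.support, (m.sum fun _ e => e) ≤ 1) :
    lam q = lam 1 * eval (fun j => lam (X j) / lam 1) q ∨ lam 1 = 0 := by
  by_cases h1 : lam 1 = 0
  · exact Or.inr h1
  left
  conv_lhs => rw [q.as_sum]
  conv_rhs => rw [q.as_sum]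
  rw [map_sum, map_sum, Finset.mul_sum]
  apply Finset.sum_congr rfl
  intro m hm
  have hm1 := hq m hm
  rcases Nat.le_one_iff_eq_zero_or_eq_one.mp hm1 with h0 | h0
  · have : m = 0 := by
      ext i
      by_contra hne
      have hmem : i ∈ m.support := Finsupp.mem_support_iff.mpr hne
      have : m i ≤ m.sum fun _ e => e :=
        Finset.single_le_sum (f := fun i => m i) (fun _ _ => Nat.zero_le _) hmem
      rw [h0] at this
      exact hne (Nat.le_zero.mp this)
    subst this
    have h2 : (monomial 0 (coeff 0 q) : MvPolynomial σ ℂ)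
        = (coeff 0 q) • (1 : MvPolynomial σ ℂ) := by
      rw [smul_eq_C_mul, mul_one]; rfl
    rw [h2, map_smul]
    simp [mul_comm]
  · obtain ⟨j, rfl⟩ := (Finsupp.sum_eq_one_iff m).mp h0
    have h2 : (monomial (Finsupp.single j 1) (coeff (Finsupp.single j 1) q) : MvPolynomial σ ℂ)
        = (coeff (Finsupp.single j 1) q) • (X j : MvPolynomial σ ℂ) := by
      rw [smul_eq_C_mul, X, C_mul_monomial, mul_one]
    rw [h2, map_smul]
    simp only [smul_eq_mul, smul_eval, eval_X]
    field_simp

lemma support_pderiv {σ : Type} (f : MvPolynomial σ ℂ) (hdeg : f.totalDegree ≤ 2) (l : σ) :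
    ∀ m ∈ (pderiv l f).support, (m.sum fun _ e => e) ≤ 1 := by
  classical
  intro m hm
  rw [mem_support_iff, coeff_pderiv] at hm
  have h1 : coeff (m + Finsupp.single l 1) f ≠ 0 := by
    intro h
    apply hm
    rw [h]
    simp
  have h2 := le_totalDegree (mem_support_iff.mpr h1)
  rw [Finsupp.sum_add_index' (by simp) (by simp)] at h2
  simp at h2
  omega

lemma exists_direction {σ : Type} [Fintype σ] (f : MvPolynomial σ ℂ) (hdeg : f.totalDegree ≤ 2)
    (hcrit : ∀ a : σ → ℂ, ∃ l, eval a (pderiv l f) ≠ 0) :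
    ∃ k : σ → ℂ, ∑ l, C (k l) * pderiv l f = 1 := by
  by_cases hmem : (1 : MvPolynomial σ ℂ) ∈ Submodule.span ℂ (Set.range fun l => pderiv l f)
  · obtain ⟨c, hc⟩ := (Submodule.mem_span_range_iff_exists_fun ℂ).mp hmem
    refine ⟨c, ?_⟩
    rw [← hc]
    apply Finset.sum_congr rfl
    intro l _
    rw [smul_eq_C_mul]
  · exfalso
    obtain ⟨lam, hlam1, hlam⟩ := Submodule.exists_le_ker_of_notMem hmem
    obtain ⟨l, hl⟩ := hcrit (fun j => lam (X j) / lam 1)
    rcases functional_eq_eval lam (pderiv l f) (support_pderiv f hdeg l) with h | h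
    · have h0 : lam (pderiv l f) = 0 := by
        have : pderiv l f ∈ LinearMap.ker lam := hlam (Submodule.subset_span ⟨l, rfl⟩)
        exact this
      rw [h0] at h
      rcases mul_eq_zero.mp h.symm with h' | h'
      · exact hlam1 h'
      · exact hl h'
    · exact hlam1 h

lemma no_critical {σ τ : Type} [Fintype τ] (ι : σ → τ) (hι : Function.Injective ι)
    (f : MvPolynomial σ ℂ) (hf : IsCoordinate (rename ι f)) :
    ∀ a : σ → ℂ, ∃ l, eval a (pderiv l f) ≠ 0 := by
  classical
  obtain ⟨φ, i₀, hφ⟩ := hf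
  intro a
  by_contra hcon
  push Not at hcon
  set F := rename ι f with hF
  have h1 : (φ : MvPolynomial τ ℂ →ₐ[ℂ] MvPolynomial τ ℂ) = aeval (fun j => φ (X j)) := by
    apply MvPolynomial.algHom_ext
    intro j
    simp
  have h2 : aeval (fun j => φ (X j)) F = X i₀ := by
    rw [← h1]
    exact hφ
  have h3 := chain_rule (pderiv i₀) (fun j => φ (X j)) F
  rw [h2, pderiv_X_self] at h3
  have h4 := congrArg φ.symm h3
  rw [map_one, map_sum] at h4
  have h5 := congrArg (eval (Function.extend ι a 0)) h4
  rw [map_one, map_sum] at h5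
  have h6 : ∀ j, eval (Function.extend ι a 0) (pderiv j F) = 0 := by
    intro j
    by_cases hj : j ∈ Set.range ι
    · obtain ⟨l, rfl⟩ := hj
      rw [hF, pderiv_rename hι, eval_rename]
      have : Function.extend ι a 0 ∘ ι = a := by
        funext x
        simp [hι.extend_apply]
      rw [this]
      exact hcon l
    · rw [pderiv_eq_zero_of_notMem_vars, map_zero]
      intro hr
      rw [hF] at hr
      have := vars_rename _ _ hr
      simp only [Finset.mem_image] at this
      obtain ⟨l, _, hl⟩ := this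
      exact hj ⟨l, hl⟩
  have h7 : ∀ j, φ.symm (aeval (fun j => φ (X j)) (pderiv j F)) = pderiv j F := by
    intro j
    rw [← h1]
    simp
  simp only [map_mul, h7, h6, zero_mul, Finset.sum_const_zero] at h5
  exact one_ne_zero h5

/-- For polynomials of total degree at most two, in any number of variables, the stable coordinate
conjecture holds; moreover such a polynomial is a coordinate exactly when its gradient has no
zero in `ℂ^n`. -/
theorem result (n : ℕ) (f : MvPolynomial (Fin n) ℂ) (hdeg : f.totalDegree ≤ 2) :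
    (IsStableCoordinate f → IsCoordinate f) ∧
    (IsCoordinate f ↔ ∀ a : Fin n → ℂ, ∃ l, eval a (pderiv l f) ≠ 0) := by
  have key : (∀ a : Fin n → ℂ, ∃ l, eval a (pderiv l f) ≠ 0) → IsCoordinate f := by
    intro hcrit
    obtain ⟨k, hk⟩ := exists_direction f hdeg hcrit
    exact coordinate_of_direction f k hk
  refine ⟨?_, ?_, key⟩
  · rintro ⟨m, _, hm⟩
    exact key (no_critical Sum.inl Sum.inl_injective f hm)
  · intro h
    apply no_critical id Function.injective_id f
    rwa [rename_id_apply]

end Vale.Agent.Results.P295.DegreeTwo
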