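import Mathlib
import Vale.Agent.Results.P295.DegreeTwo

namespace Vale.Agent.Results.P295.E_StableImpliesCoordinate

open Vale.Agent.Results.P295.DegreeTwo

/-- The stable coordinate conjecture for polynomials of total degree at most two, in any number
of variables. -/
theorem result : ∀ (n : ℕ) (f : MvPolynomial (Fin n) ℂ), f.totalDegree ≤ 2 →
    IsStableCoordinate f → IsCoordinate f :=
  fun n f hdeg => (Vale.Agent.Results.P295.DegreeTwo.result n f hdeg).1

end Vale.Agent.Results.P295.E_StableImpliesCoordinate
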